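import Vale.Agent.Snaky.Sym

/-!
# Assembling certificates for the Snaky game

Helper statements turning accepted certificates into game statements, and the eight
symmetries of the window that fix its centre cell.
-/

namespace Vale.Agent.Snaky

theorem compatM_single (c : Nat) : CompatM (2 ^ c) {cellOf c} := by
  intro i
  rw [Nat.testBit_two_pow, Finset.mem_singleton]
  constructor
  · intro h
    have : c = i := by simpa using h
    rw [this]
  · intro h
    have := cellOf_inj h
    simp [this]

theorem compatB_single (z c : Nat) : CompatB z (2 ^ c) {cellOf c} := by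
  intro i _ h
  rw [Finset.mem_singleton] at h
  have := cellOf_inj h
  simp [this]

/-- An accepted certificate from the position with one stone each. -/
theorem makerWins_reply (T : Strat) (c0 c : Nat) (h : checkS T (2 ^ c0) (2 ^ c) ≠ 0) :
    MakerWins {cellOf c0} {cellOf c} :=
  soundS T _ _ h (compatM_single c0) (compatB_single _ c)

/-- An accepted certificate from the position with one Maker stone: it answers every Breaker
stone outside its zone. -/
theorem makerWins_far (T : Strat) (c0 z : Nat) (h : checkS T (2 ^ c0) 0 = z) (hz : z ≠ 0)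
    (b : Cell) (hb : ∀ i, z.testBit i = true → cellOf i ≠ b) :
    MakerWins {cellOf c0} {b} := by
  refine soundS T _ _ (by rw [h]; exact hz) (compatM_single c0) ?_
  intro i hi hib
  rw [h] at hi
  rw [Finset.mem_singleton] at hib
  exact absurd hib (hb i hi)

/-- The eight matrices. -/
def symS : Nat → ℤ × ℤ × ℤ × ℤ
  | 0 => (1, 0, 0, 1)
  | 1 => (0, -1, 1, 0)
  | 2 => (-1, 0, 0, -1)
  | 3 => (0, 1, -1, 0)
  | 4 => (-1, 0, 0, 1)
  | 5 => (1, 0, 0, -1)
  | 6 => (0, 1, 1, 0)
  | _ => (0, -1, -1, 0)

/-- Their inverses. -/
def symS' : Nat → ℤ × ℤ × ℤ × ℤ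
  | 0 => (1, 0, 0, 1)
  | 1 => (0, 1, -1, 0)
  | 2 => (-1, 0, 0, -1)
  | 3 => (0, -1, 1, 0)
  | 4 => (-1, 0, 0, 1)
  | 5 => (1, 0, 0, -1)
  | 6 => (0, 1, 1, 0)
  | _ => (0, -1, -1, 0)

/-- The translations making these symmetries fix the cell `(20, 20)`. -/
def symT : Nat → Cell
  | 0 => (0, 0)
  | 1 => (40, 0)
  | 2 => (40, 40)
  | 3 => (0, 40)
  | 4 => (40, 0)
  | 5 => (0, 40)
  | 6 => (0, 0)
  | _ => (40, 40)

/-- The translations of the inverses. -/
def symT' : Nat → Cell
  | 0 => (0, 0)
  | 1 => (0, 40)
  | 2 => (40, 40)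
  | 3 => (40, 0)
  | 4 => (40, 0)
  | 5 => (0, 40)
  | 6 => (0, 0)
  | _ => (40, 40)

theorem symS_mem (k : Nat) : symS k ∈ signedPerms := by
  match k with
  | 0 => decide
  | 1 => decide
  | 2 => decide
  | 3 => decide
  | 4 => decide
  | 5 => decide
  | 6 => decide
  | _ + 7 =>
    show ((0 : ℤ), (-1 : ℤ), (-1 : ℤ), (0 : ℤ)) ∈ signedPerms
    decide

theorem sym_left (k : Nat) (c : Cell) : place (symT' k) (symS' k) (place (symT k) (symS k) c) = c := by
  obtain ⟨x, y⟩ := c
  match k with
  | 0 => simp [place, symS, symS', symT, symT']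
  | 1 => simp [place, symS, symS', symT, symT']
  | 2 => simp [place, symS, symS', symT, symT']
  | 3 => simp [place, symS, symS', symT, symT']
  | 4 => simp [place, symS, symS', symT, symT']
  | 5 => simp [place, symS, symS', symT, symT']
  | 6 => simp [place, symS, symS', symT, symT']
  | _ + 7 => simp [place, symS, symS', symT, symT']

theorem sym_right (k : Nat) (c : Cell) : place (symT k) (symS k) (place (symT' k) (symS' k) c) = c := by
  obtain ⟨x, y⟩ := c
  match k with
  | 0 => simp [place, symS, symS', symT, symT']
  | 1 => simp [place, symS, symS', symT, symT']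
  | 2 => simp [place, symS, symS', symT, symT']
  | 3 => simp [place, symS, symS', symT, symT']
  | 4 => simp [place, symS, symS', symT, symT']
  | 5 => simp [place, symS, symS', symT, symT']
  | 6 => simp [place, symS, symS', symT, symT']
  | _ + 7 => simp [place, symS, symS', symT, symT']

/-- The centre of the window. -/
def centre : Cell := (20, 20)

theorem cellOf_840 : cellOf 840 = centre := by decide

theorem sym_centre (k : Nat) : place (symT k) (symS k) centre = centre := by
  match k with
  | 0 => decide
  | 1 => decide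
  | 2 => decide
  | 3 => decide
  | 4 => decide
  | 5 => decide
  | 6 => decide
  | _ + 7 =>
    show place ((40 : ℤ), (40 : ℤ)) ((0 : ℤ), (-1 : ℤ), (-1 : ℤ), (0 : ℤ)) centre = centre
    decide

/-- Transport a reply along a symmetry fixing the centre. -/
theorem reply_sym (k : Nat) {c b : Cell} (h : MakerWins {centre} {c})
    (hb : place (symT k) (symS k) c = b) : MakerWins {centre} {b} := by
  have := MakerWins.image h (symT k) (symT' k) (symS_mem k) (sym_left k) (sym_right k)
  rw [Finset.image_singleton, Finset.image_singleton, sym_centre, hb] at this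
  exact this

theorem reply_centre {c : Cell} (h : MakerWins {cellOf 840} {c}) : MakerWins {centre} {c} := by
  rwa [cellOf_840] at h

/-- Every `z` below `2 ^ n` has its set bits below `n`. -/
theorem bit_lt_of_lt {z n i : Nat} (hz : z < 2 ^ n) (hi : z.testBit i = true) : i < n := by
  by_contra h
  have hle : n ≤ i := Nat.le_of_not_lt h
  have : z < 2 ^ i := lt_of_lt_of_le hz (Nat.pow_le_pow_right (by norm_num) hle)
  rw [Nat.testBit_lt_two_pow this] at hi
  exact Bool.false_ne_true hi

/-- Move the centre to the origin. -/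
theorem to_origin {b : Cell} (h : MakerWins {centre} {b}) :
    MakerWins {((0 : ℤ), (0 : ℤ))} {place (-20, -20) (1, 0, 0, 1) b} := by
  have := MakerWins.image h (-20, -20) (20, 20) (S := (1, 0, 0, 1)) (S' := (1, 0, 0, 1)) (by decide)
    (fun c => by obtain ⟨x, y⟩ := c; simp [place]) (fun c => by obtain ⟨x, y⟩ := c; simp [place])
  rw [Finset.image_singleton, Finset.image_singleton] at this
  have hc : place (-20, -20) (1, 0, 0, 1) centre = ((0 : ℤ), (0 : ℤ)) := by decide
  rw [hc] at this
  exact this

end Vale.Agent.Snaky
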