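import Vale.Agent.Snaky.Defs

/-!
# A kernel-friendly checker for Maker strategies in the Snaky game

Cells of a window of width `41` are numbered by `x + 41 * y`; sets of cells are
stored as bit masks in a natural number.  A certificate is a tree giving a Maker move
and answers to Breaker's replies; a Breaker reply with no answer of its own is handled
through the set of cells (the zone) that a subtree actually looks at.
-/

namespace Vale.Agent.Snaky

/-- The cell with number `i`. -/
def cellOf (i : Nat) : Cell := (((i % 41 : Nat) : ℤ), ((i / 41 : Nat) : ℤ))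

theorem cellOf_inj {i j : Nat} (h : cellOf i = cellOf j) : i = j := by
  unfold cellOf at h
  simp only [Prod.mk.injEq, Nat.cast_inj] at h
  omega

mutual
  /-- Strategy certificates. -/
  inductive Strat : Type
    /-- Maker claims cell `c`, completing the copy `shape r` shifted by `a`. -/
    | win (c r a : Nat) : Strat
    /-- Maker claims cell `c`.  The tree `p` answers every Breaker reply outside
    the zone of `p`; `bs` lists the answers to the other replies. -/
    | move (c : Nat) (p : Strat) (bs : Br) : Strat
  /-- Lists of answers. -/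
  inductive Br : Type
    | nil : Br
    | cons (b : Nat) (t : Strat) (rest : Br) : Br
end

/-- The bit mask of a copy of Snaky in orientation `r`, anchored at bit `0`. -/
def shape : Nat → Nat
  | 0 => 2^0 + 2^1 + 2^2 + 2^3 + 2^(3+41) + 2^(4+41)
  | 1 => 2^1 + 2^(1+41) + 2^(1+82) + 2^(1+123) + 2^123 + 2^164
  | 2 => 2^(4+41) + 2^(3+41) + 2^(2+41) + 2^(1+41) + 2^1 + 2^0
  | 3 => 2^164 + 2^123 + 2^82 + 2^41 + 2^(1+41) + 2^1
  | 4 => 2^4 + 2^3 + 2^2 + 2^1 + 2^(1+41) + 2^41
  | 5 => 2^41 + 2^(1+41) + 2^(2+41) + 2^(3+41) + 2^3 + 2^4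
  | 6 => 2^0 + 2^41 + 2^82 + 2^123 + 2^(1+123) + 2^(1+164)
  | 7 => 2^(1+164) + 2^(1+123) + 2^(1+82) + 2^(1+41) + 2^41 + 2^0
  | _ => 0

/-- The width of the copy in orientation `r`. -/
def widthOf (r : Nat) : Nat := if r == 0 || r == 2 || r == 4 || r == 5 then 5 else 2

/-- The test for a winning move. -/
def winOk (c r a M B : Nat) : Bool :=
  Nat.beq (Nat.land (Nat.lor M B) (2 ^ c)) 0 && Nat.ble (a % 41 + widthOf r) 41 &&
    Nat.beq (Nat.lor (Nat.shiftLeft (shape r) a) (Nat.lor M (2 ^ c))) (Nat.lor M (2 ^ c)) &&
    Nat.ble 1 (shape r)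

/-- Check a winning move; gives the zone, or `0` on failure. -/
def winStep (c r a M B : Nat) : Nat :=
  bif winOk c r a M B then 2 ^ c else 0

/-- Check a move, given the checkers of the subtrees. -/
def moveStep (c : Nat) (fp : Nat → Nat → Nat) (fb : Nat → Nat → Nat → Nat → Nat)
    (M B : Nat) : Nat :=
  bif Nat.beq (Nat.land (Nat.lor M B) (2 ^ c)) 0 then
    let M' := Nat.lor M (2 ^ c)
    let z0 := fp M' B
    bif Nat.beq z0 0 then 0 else
      let r := fb M' B z0 z0
      bif Nat.beq r 0 then 0 else Nat.lor r (2 ^ c)
  else 0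

/-- Check an answer: `R` is the set of replies still to be covered, `U` the zone so far. -/
def consStep (b : Nat) (ft : Nat → Nat → Nat) (fr : Nat → Nat → Nat → Nat → Nat)
    (M B R U : Nat) : Nat :=
  let z := ft M (Nat.lor B (2 ^ b))
  bif Nat.beq z 0 then 0 else
    fr M B (Nat.xor (Nat.lor (Nat.land R z) (2 ^ b)) (2 ^ b)) (Nat.lor U z)

/-- End of the list of answers. -/
def nilStep (R U : Nat) : Nat := bif Nat.beq R 0 then U else 0

/-- The checker for strategies. -/
noncomputable def checkS (T : Strat) : Nat → Nat → Nat :=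
  @Strat.rec (fun _ => Nat → Nat → Nat) (fun _ => Nat → Nat → Nat → Nat → Nat)
    (fun c r a M B => winStep c r a M B)
    (fun c _ _ ihp ihb M B => moveStep c ihp ihb M B)
    (fun _ _ R U => nilStep R U)
    (fun b _ _ iht ihr M B R U => consStep b iht ihr M B R U)
    T

/-- The checker for lists of answers. -/
noncomputable def checkB (T : Br) : Nat → Nat → Nat → Nat → Nat :=
  @Br.rec (fun _ => Nat → Nat → Nat) (fun _ => Nat → Nat → Nat → Nat → Nat)
    (fun c r a M B => winStep c r a M B)
    (fun c _ _ ihp ihb M B => moveStep c ihp ihb M B)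
    (fun _ _ R U => nilStep R U)
    (fun b _ _ iht ihr M B R U => consStep b iht ihr M B R U)
    T

theorem checkS_win (c r a M B : Nat) : checkS (.win c r a) M B = winStep c r a M B := rfl
theorem checkS_move (c : Nat) (p : Strat) (bs : Br) (M B : Nat) :
    checkS (.move c p bs) M B = moveStep c (checkS p) (checkB bs) M B := rfl
theorem checkB_nil (M B R U : Nat) : checkB .nil M B R U = nilStep R U := rfl
theorem checkB_cons (b : Nat) (t : Strat) (rest : Br) (M B R U : Nat) :
    checkB (.cons b t rest) M B R U = consStep b (checkS t) (checkB rest) M B R U := rfl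

/-- Offsets of the six cells of the copy with orientation `r`. -/
def offs : Nat → List (Nat × Nat)
  | 0 => [(0,0),(1,0),(2,0),(3,0),(3,1),(4,1)]
  | 1 => [(1,0),(1,1),(1,2),(1,3),(0,3),(0,4)]
  | 2 => [(4,1),(3,1),(2,1),(1,1),(1,0),(0,0)]
  | 3 => [(0,4),(0,3),(0,2),(0,1),(1,1),(1,0)]
  | 4 => [(4,0),(3,0),(2,0),(1,0),(1,1),(0,1)]
  | 5 => [(0,1),(1,1),(2,1),(3,1),(3,0),(4,0)]
  | 6 => [(0,0),(0,1),(0,2),(0,3),(1,3),(1,4)]
  | 7 => [(1,4),(1,3),(1,2),(1,1),(0,1),(0,0)]
  | _ => []

/-- Translation of orientation `r`, relative to the anchor. -/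
def anchorOff : Nat → ℤ × ℤ
  | 0 => (0, 0) | 1 => (1, 0) | 2 => (4, 1) | 3 => (0, 4)
  | 4 => (4, 0) | 5 => (0, 1) | 6 => (0, 0) | _ => (1, 4)

/-- The matrix of orientation `r`. -/
def matOf : Nat → ℤ × ℤ × ℤ × ℤ
  | 0 => (1, 0, 0, 1) | 1 => (0, -1, 1, 0) | 2 => (-1, 0, 0, -1) | 3 => (0, 1, -1, 0)
  | 4 => (-1, 0, 0, 1) | 5 => (1, 0, 0, -1) | 6 => (0, 1, 1, 0) | _ => (0, -1, -1, 0)

theorem shape_offs (r : Nat) (hr : r < 8) :
    ∀ p ∈ offs r, (shape r).testBit (p.1 + 41 * p.2) = true := by
  interval_cases r <;> decide

theorem offs_width (r : Nat) (hr : r < 8) : ∀ p ∈ offs r, p.1 < widthOf r := by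
  interval_cases r <;> decide

theorem shape_zero_of_ge (r : Nat) (h : 1 ≤ shape r) : r < 8 := by
  by_contra hr
  have : shape r = 0 := by
    match r, hr with
    | 0, hr => simp at hr
    | 1, hr => simp at hr
    | 2, hr => simp at hr
    | 3, hr => simp at hr
    | 4, hr => simp at hr
    | 5, hr => simp at hr
    | 6, hr => simp at hr
    | 7, hr => simp at hr
    | _ + 8, _ => rfl
  omega

theorem matOf_mem (r : Nat) (hr : r < 8) : matOf r ∈ signedPerms := by
  interval_cases r <;> decide

/-- Every cell of the placed copy is an offset cell. -/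
theorem copy_cells (r : Nat) (hr : r < 8) (ax ay : ℤ) (q : Cell)
    (hq : q ∈ snaky.image (place ((ax, ay) + anchorOff r) (matOf r))) :
    ∃ p ∈ offs r, q = (ax + p.1, ay + p.2) := by
  rw [Finset.mem_image] at hq
  obtain ⟨s, hs, rfl⟩ := hq
  simp only [snaky, Finset.mem_insert, Finset.mem_singleton] at hs
  interval_cases r <;>
    rcases hs with rfl | rfl | rfl | rfl | rfl | rfl <;>
    simp [place, anchorOff, matOf, offs] <;> omega

theorem cellOf_offset (a dx dy : Nat) (h : a % 41 + dx < 41) :
    cellOf (a + (dx + 41 * dy)) = (((a % 41 : Nat) : ℤ) + dx, ((a / 41 : Nat) : ℤ) + dy) := by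
  unfold cellOf
  have h1 : (a + (dx + 41 * dy)) % 41 = a % 41 + dx := by omega
  have h2 : (a + (dx + 41 * dy)) / 41 = a / 41 + dy := by omega
  rw [h1, h2]
  push_cast
  rfl

/-- Compatibility of a mask with a set of Maker cells. -/
def CompatM (M : Nat) (MF : Finset Cell) : Prop :=
  ∀ i, M.testBit i = true ↔ cellOf i ∈ MF

/-- A zone condition on Breaker's cells. -/
def CompatB (z B : Nat) (BF : Finset Cell) : Prop :=
  ∀ i, z.testBit i = true → cellOf i ∈ BF → B.testBit i = true

theorem compatM_insert {M : Nat} {MF : Finset Cell} (h : CompatM M MF) (c : Nat) :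
    CompatM (Nat.lor M (2 ^ c)) (insert (cellOf c) MF) := by
  intro i
  have : (Nat.lor M (2 ^ c)).testBit i = (M.testBit i || (2 ^ c).testBit i) := Nat.testBit_or M _ i
  rw [this, Nat.testBit_two_pow]
  simp only [Bool.or_eq_true, decide_eq_true_eq, Finset.mem_insert]
  rw [h i]
  constructor
  · rintro (h1 | h1)
    · exact Or.inr h1
    · exact Or.inl (by rw [h1])
  · rintro (h1 | h1)
    · exact Or.inr (cellOf_inj h1).symm
    · exact Or.inl h1

theorem testBit_lor (x y i : Nat) : (Nat.lor x y).testBit i = (x.testBit i || y.testBit i) :=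
  Nat.testBit_or x y i
theorem testBit_land (x y i : Nat) : (Nat.land x y).testBit i = (x.testBit i && y.testBit i) :=
  Nat.testBit_and x y i
theorem testBit_xor (x y i : Nat) : (Nat.xor x y).testBit i = (x.testBit i ^^ y.testBit i) :=
  Nat.testBit_xor x y i

theorem free_of_land {x c : Nat} (h : Nat.land x (2 ^ c) = 0) : x.testBit c = false := by
  have := testBit_land x (2 ^ c) c
  rw [h] at this
  simpa [Nat.testBit_two_pow] using this.symm

theorem winStep_sound {c r a M B : Nat} (h : winStep c r a M B ≠ 0) {MF BF : Finset Cell}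
    (hM : CompatM M MF) (hB : CompatB (winStep c r a M B) B BF) : MakerWins MF BF := by
  unfold winStep at h hB
  cases hc : winOk c r a M B with
  | false =>
    rw [hc] at h
    exact absurd rfl h
  | true =>
    rw [hc] at hB
    simp only [cond_true] at hB
    unfold winOk at hc
    simp only [Bool.and_eq_true] at hc
    obtain ⟨⟨⟨h1, h2⟩, h3⟩, h4⟩ := hc
    replace h1 := Nat.eq_of_beq_eq_true h1
    replace h2 := Nat.le_of_ble_eq_true h2
    replace h3 := Nat.eq_of_beq_eq_true h3
    replace h4 := Nat.le_of_ble_eq_true h4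
    have hr := shape_zero_of_ge r h4
    have hf : (Nat.lor M B).testBit c = false := free_of_land h1
    have hfMB : M.testBit c = false ∧ B.testBit c = false := by
      have := testBit_lor M B c
      rw [hf] at this
      simpa using this.symm
    obtain ⟨hfM, hfB⟩ := hfMB
    have hcM : cellOf c ∉ MF := by
      intro h5
      rw [← hM c, hfM] at h5
      exact Bool.false_ne_true h5
    have hcB : cellOf c ∉ BF := by
      intro h5
      have := hB c (by simp [Nat.testBit_two_pow]) h5
      rw [hfB] at this
      exact Bool.false_ne_true this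
    refine MakerWins.move (cellOf c) hcM hcB ?_
    intro b _ _ _
    have hM' := compatM_insert hM c
    refine MakerWins.won (snaky.image (place ((((a % 41 : Nat) : ℤ), ((a / 41 : Nat) : ℤ)) + anchorOff r) (matOf r)))
      ⟨_, _, matOf_mem r hr, rfl⟩ ?_
    intro q hq
    obtain ⟨p, hp, rfl⟩ := copy_cells r hr _ _ q hq
    have hw := offs_width r hr p hp
    have hcell := cellOf_offset a p.1 p.2 (by omega)
    rw [← hcell, ← hM']
    have hb := shape_offs r hr p hp
    have hsh : (Nat.shiftLeft (shape r) a).testBit (a + (p.1 + 41 * p.2)) = true := by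
      have : Nat.shiftLeft (shape r) a = shape r <<< a := rfl
      rw [this, Nat.testBit_shiftLeft]
      simp [hb]
    have hor := testBit_lor (Nat.shiftLeft (shape r) a) (Nat.lor M (2 ^ c)) (a + (p.1 + 41 * p.2))
    rw [h3, hsh] at hor
    simpa using hor

theorem checkB_superset (bs : Br) : ∀ (M B R U : Nat), checkB bs M B R U ≠ 0 →
    ∀ i, U.testBit i = true → (checkB bs M B R U).testBit i = true := by
  refine @Br.rec (fun _ => True) (fun bs => ∀ (M B R U : Nat), checkB bs M B R U ≠ 0 →
    ∀ i, U.testBit i = true → (checkB bs M B R U).testBit i = true)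
    (fun _ _ _ => trivial) (fun _ _ _ _ _ => trivial) ?_ ?_ bs
  · intro M B R U h i hi
    rw [checkB_nil] at h ⊢
    unfold nilStep at h ⊢
    cases hR : Nat.beq R 0 <;> simp [hR] at h ⊢
    exact hi
  · intro b t rest _ ihr M B R U h i hi
    rw [checkB_cons] at h ⊢
    unfold consStep at h ⊢
    simp only at h ⊢
    cases hz : Nat.beq (checkS t M (Nat.lor B (2 ^ b))) 0
    · simp only [hz, cond_false] at h ⊢
      exact ihr _ _ _ _ h i (by rw [testBit_lor, hi]; rfl)
    · rw [hz] at h
      exact absurd rfl h

/-- Soundness statement for strategies. -/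
def SoundS (T : Strat) : Prop :=
  ∀ (M B : Nat), checkS T M B ≠ 0 → ∀ {MF BF : Finset Cell},
      CompatM M MF → CompatB (checkS T M B) B BF → MakerWins MF BF

/-- Soundness statement for lists of answers. -/
def SoundB (bs : Br) : Prop :=
  ∀ (M B R U : Nat), checkB bs M B R U ≠ 0 → ∀ {MF BF : Finset Cell} (i : Nat),
      CompatM M MF → CompatB (checkB bs M B R U) B BF → R.testBit i = true →
      MakerWins MF (insert (cellOf i) BF)

theorem soundS_win (c r a : Nat) : SoundS (.win c r a) := by
  intro M B h MF BF hM hB
  exact winStep_sound h hM hB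

theorem soundS_move (c : Nat) (p : Strat) (bs : Br) (ihp : SoundS p) (ihb : SoundB bs) :
    SoundS (.move c p bs) := by
  intro M B h MF BF hM hB
  rw [checkS_move] at h hB
  unfold moveStep at h hB
  simp only at h hB
  cases hfree : Nat.beq (Nat.land (Nat.lor M B) (2 ^ c)) 0 with
  | false => rw [hfree] at h; exact absurd rfl h
  | true =>
    rw [hfree] at h hB
    simp only [cond_true] at h hB
    cases hz0 : Nat.beq (checkS p (Nat.lor M (2 ^ c)) B) 0 with
    | true => rw [hz0] at h; exact absurd rfl h
    | false =>
      rw [hz0] at h hB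
      simp only [cond_false] at h hB
      set z0 := checkS p (Nat.lor M (2 ^ c)) B with hz0def
      cases hr : Nat.beq (checkB bs (Nat.lor M (2 ^ c)) B z0 z0) 0 with
      | true => rw [hr] at h; exact absurd rfl h
      | false =>
        rw [hr] at hB
        simp only [cond_false] at hB
        have hrne : checkB bs (Nat.lor M (2 ^ c)) B z0 z0 ≠ 0 := by
          intro h0
          rw [h0] at hr
          simp at hr
        have hz0ne : z0 ≠ 0 := by
          intro h0
          rw [h0] at hz0
          simp at hz0
        have hfree' := Nat.eq_of_beq_eq_true hfree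
        have hf : (Nat.lor M B).testBit c = false := free_of_land hfree'
        have hfMB : M.testBit c = false ∧ B.testBit c = false := by
          have := testBit_lor M B c
          rw [hf] at this
          simpa using this.symm
        obtain ⟨hfM, hfB⟩ := hfMB
        have hcM : cellOf c ∉ MF := by
          intro h5
          rw [← hM c, hfM] at h5
          exact Bool.false_ne_true h5
        have hcB : cellOf c ∉ BF := by
          intro h5
          have := hB c (by rw [testBit_lor]; simp [Nat.testBit_two_pow]) h5
          rw [hfB] at this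
          exact Bool.false_ne_true this
        have hM' := compatM_insert hM c
        have hzr : CompatB (checkB bs (Nat.lor M (2 ^ c)) B z0 z0) B BF := by
          intro i hi hiB
          exact hB i (by rw [testBit_lor, hi]; rfl) hiB
        refine MakerWins.move (cellOf c) hcM hcB ?_
        intro x _ _ _
        by_cases hx : ∃ i, cellOf i = x ∧ z0.testBit i = true
        · obtain ⟨i, rfl, hi⟩ := hx
          exact ihb _ _ _ _ hrne i hM' hzr hi
        · refine ihp _ _ hz0ne hM' ?_
          intro j hj hjB
          rw [Finset.mem_insert] at hjB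
          rcases hjB with hjB | hjB
          · exact absurd ⟨j, hjB, hj⟩ hx
          · exact hzr j (checkB_superset bs _ _ _ _ hrne j hj) hjB

theorem soundB_nil : SoundB .nil := by
  intro M B R U h MF BF i hM hB hi
  rw [checkB_nil] at h
  unfold nilStep at h
  cases hR : Nat.beq R 0 with
  | false => rw [hR] at h; exact absurd rfl h
  | true =>
    have := Nat.eq_of_beq_eq_true hR
    rw [this] at hi
    simp at hi

theorem soundB_cons (b : Nat) (t : Strat) (rest : Br) (iht : SoundS t) (ihr : SoundB rest) :
    SoundB (.cons b t rest) := by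
  intro M B R U h MF BF i hM hB hi
  rw [checkB_cons] at h hB
  unfold consStep at h hB
  simp only at h hB
  cases hz : Nat.beq (checkS t M (Nat.lor B (2 ^ b))) 0 with
  | true => rw [hz] at h; exact absurd rfl h
  | false =>
    rw [hz] at h hB
    simp only [cond_false] at h hB
    set z := checkS t M (Nat.lor B (2 ^ b)) with hzdef
    have hzne : z ≠ 0 := by
      intro h0
      rw [h0] at hz
      simp at hz
    have hsup := checkB_superset rest M B _ _ h
    have hzsub : ∀ j, z.testBit j = true →
        (checkB rest M B (Nat.xor (Nat.lor (Nat.land R z) (2 ^ b)) (2 ^ b)) (Nat.lor U z)).testBit j = true := by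
      intro j hj
      apply hsup
      rw [testBit_lor, hj]
      simp
    by_cases hcase : i = b ∨ z.testBit i = false
    · refine iht _ _ hzne hM ?_
      intro j hj hjB
      rw [testBit_lor, Nat.testBit_two_pow]
      rw [Finset.mem_insert] at hjB
      rcases hjB with hjB | hjB
      · have hji := cellOf_inj hjB
        subst hji
        rcases hcase with hcase | hcase
        · simp [hcase]
        · rw [hcase] at hj
          exact absurd hj Bool.false_ne_true
      · rw [hB j (hzsub j hj) hjB]
        rfl
    · push Not at hcase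
      obtain ⟨hib, hiz⟩ := hcase
      have hiz' : z.testBit i = true := by simpa using hiz
      refine ihr _ _ _ _ h i hM hB ?_
      rw [testBit_xor, testBit_lor, testBit_land, hi, hiz', Nat.testBit_two_pow]
      have hne : (b = i) = False := by
        simp only [eq_iff_iff, iff_false]
        exact fun h => hib h.symm
      simp [hne]

theorem soundS (T : Strat) : SoundS T :=
  @Strat.rec (fun T => SoundS T) (fun bs => SoundB bs)
    soundS_win (fun c p bs ihp ihb => soundS_move c p bs ihp ihb) soundB_nil
    (fun b t rest iht ihr => soundB_cons b t rest iht ihr) T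

/-- The main soundness statement: a certificate accepted from the empty position
gives a win for Maker on the empty board. -/
theorem makerWins_of_check (T : Strat) (h : checkS T 0 0 ≠ 0) :
    MakerWins (∅ : Finset Cell) (∅ : Finset Cell) := by
  refine soundS T 0 0 h ?_ ?_
  · intro i
    simp
  · intro i _ hi
    simp at hi


/-- A certified position: the mask `z` is a zone for a Maker win from `(M, B)`. -/
def Valid (M B z : Nat) : Prop :=
  z ≠ 0 ∧ ∀ {MF BF : Finset Cell}, CompatM M MF → CompatB z B BF → MakerWins MF BF

/-- A certified list of answers. -/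
def BrValid (M B R U r : Nat) : Prop :=
  r ≠ 0 ∧ (∀ i, U.testBit i = true → r.testBit i = true) ∧
    ∀ {MF BF : Finset Cell} (i : Nat), CompatM M MF → CompatB r B BF → R.testBit i = true →
      MakerWins MF (insert (cellOf i) BF)

theorem valid_of_check (T : Strat) {M B z : Nat} (h : checkS T M B = z) (hz : z ≠ 0) :
    Valid M B z := by
  subst h
  exact ⟨hz, fun hM hB => soundS T M B hz hM hB⟩

theorem brValid_nil {M B U : Nat} (hU : U ≠ 0) : BrValid M B 0 U U := by
  refine ⟨hU, fun i hi => hi, ?_⟩
  intro MF BF i _ _ hi
  simp at hi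

theorem brValid_cons {M B R U r z b : Nat} (hz : Valid M (Nat.lor B (2 ^ b)) z)
    (hr : BrValid M B (Nat.xor (Nat.lor (Nat.land R z) (2 ^ b)) (2 ^ b)) (Nat.lor U z) r) :
    BrValid M B R U r := by
  obtain ⟨hr0, hsup, hrest⟩ := hr
  refine ⟨hr0, ?_, ?_⟩
  · intro i hi
    exact hsup i (by rw [testBit_lor, hi]; rfl)
  · intro MF BF i hM hB hi
    have hzsub : ∀ j, z.testBit j = true → r.testBit j = true := by
      intro j hj
      apply hsup
      rw [testBit_lor, hj]
      simp
    by_cases hcase : i = b ∨ z.testBit i = false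
    · refine hz.2 hM ?_
      intro j hj hjB
      rw [testBit_lor, Nat.testBit_two_pow]
      rw [Finset.mem_insert] at hjB
      rcases hjB with hjB | hjB
      · have hji := cellOf_inj hjB
        subst hji
        rcases hcase with hcase | hcase
        · simp [hcase]
        · rw [hcase] at hj
          exact absurd hj Bool.false_ne_true
      · rw [hB j (hzsub j hj) hjB]
        rfl
    · push Not at hcase
      obtain ⟨hib, hiz⟩ := hcase
      have hiz' : z.testBit i = true := by simpa using hiz
      refine hrest i hM hB ?_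
      rw [testBit_xor, testBit_lor, testBit_land, hi, hiz', Nat.testBit_two_pow]
      have hne : (b = i) = False := by
        simp only [eq_iff_iff, iff_false]
        exact fun h => hib h.symm
      simp [hne]

theorem valid_move {M B c z0 r : Nat} (hfree : Nat.land (Nat.lor M B) (2 ^ c) = 0)
    (h0 : Valid (Nat.lor M (2 ^ c)) B z0) (hb : BrValid (Nat.lor M (2 ^ c)) B z0 z0 r) :
    Valid M B (Nat.lor r (2 ^ c)) := by
  obtain ⟨hr0, hsup, hrest⟩ := hb
  refine ⟨?_, ?_⟩
  · intro h
    have := testBit_lor r (2 ^ c) c
    rw [h] at this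
    simp [Nat.testBit_two_pow] at this
  · intro MF BF hM hB
    have hf : (Nat.lor M B).testBit c = false := free_of_land hfree
    have hfMB : M.testBit c = false ∧ B.testBit c = false := by
      have := testBit_lor M B c
      rw [hf] at this
      simpa using this.symm
    obtain ⟨hfM, hfB⟩ := hfMB
    have hcM : cellOf c ∉ MF := by
      intro h5
      rw [← hM c, hfM] at h5
      exact Bool.false_ne_true h5
    have hcB : cellOf c ∉ BF := by
      intro h5
      have := hB c (by rw [testBit_lor]; simp [Nat.testBit_two_pow]) h5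
      rw [hfB] at this
      exact Bool.false_ne_true this
    have hM' := compatM_insert hM c
    have hzr : CompatB r B BF := by
      intro i hi hiB
      exact hB i (by rw [testBit_lor, hi]; rfl) hiB
    refine MakerWins.move (cellOf c) hcM hcB ?_
    intro x _ _ _
    by_cases hx : ∃ i, cellOf i = x ∧ z0.testBit i = true
    · obtain ⟨i, rfl, hi⟩ := hx
      exact hrest i hM' hzr hi
    · refine h0.2 hM' ?_
      intro j hj hjB
      rw [Finset.mem_insert] at hjB
      rcases hjB with hjB | hjB
      · exact absurd ⟨j, hjB, hj⟩ hx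
      · exact hzr j (hsup j hj) hjB

theorem makerWins_of_valid {z : Nat} (h : Valid 0 0 z) :
    MakerWins (∅ : Finset Cell) (∅ : Finset Cell) := by
  refine h.2 ?_ ?_
  · intro i
    simp
  · intro i _ hi
    simp at hi

end Vale.Agent.Snaky
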