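import Mathlib

/-!
# The Snaky achievement game on the plane

Definitions of the hexomino, of its allowed copies and of the predicate
saying that Maker can force a win from a position.
-/

namespace Vale.Agent.Snaky

/-- A cell of the square grid, indexed by its lower-left corner. -/
abbrev Cell : Type := ℤ × ℤ

/-- The Snaky hexomino `{(0,0),(1,0),(2,0),(3,0),(3,1),(4,1)}`. -/
def snaky : Finset Cell := {(0, 0), (1, 0), (2, 0), (3, 0), (3, 1), (4, 1)}

/-- The eight `2 × 2` signed permutation matrices, written as `(a, b, c, d)` for
the matrix with rows `(a, b)` and `(c, d)`. -/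
def signedPerms : List (ℤ × ℤ × ℤ × ℤ) :=
  [(1, 0, 0, 1), (0, -1, 1, 0), (-1, 0, 0, -1), (0, 1, -1, 0),
   (-1, 0, 0, 1), (1, 0, 0, -1), (0, 1, 1, 0), (0, -1, -1, 0)]

/-- The image of the cell `c` under the matrix `R` followed by the translation `t`. -/
def place (t : Cell) (R : ℤ × ℤ × ℤ × ℤ) (c : Cell) : Cell :=
  (t.1 + R.1 * c.1 + R.2.1 * c.2, t.2 + R.2.2.1 * c.1 + R.2.2.2 * c.2)

/-- `A` is an allowed copy of Snaky: `A = t + R(S)` with `R` one of the eight
signed permutation matrices and `t` a translation. -/
def IsCopy (A : Finset Cell) : Prop :=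
  ∃ t : Cell, ∃ R ∈ signedPerms, A = snaky.image (place t R)

/-- `MakerWins M B` says: in the position where Maker owns `M`, Breaker owns `B`
and it is Maker's turn, Maker can force a win after finitely many turns against
every legal Breaker play.  Either Maker already owns a copy, or Maker has a free
cell `m` to claim such that for every free reply `b` of Breaker, Maker can force
a win from the resulting position. -/
inductive MakerWins : Finset Cell → Finset Cell → Prop
  | won {M B : Finset Cell} (A : Finset Cell) (hA : IsCopy A) (hsub : A ⊆ M) : MakerWins M B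
  | move {M B : Finset Cell} (m : Cell) (hmM : m ∉ M) (hmB : m ∉ B)
      (h : ∀ b : Cell, b ≠ m → b ∉ M → b ∉ B → MakerWins (insert m M) (insert b B)) :
      MakerWins M B

end Vale.Agent.Snaky
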