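import Vale.Agent.Snaky.Check

/-!
# Symmetries of the Snaky game

The game is invariant under the maps `place t S`, where `S` is one of the eight signed
permutation matrices.  We use this for the eight symmetries fixing the centre `(20, 20)`
of the window.
-/

namespace Vale.Agent.Snaky

/-- Product of matrices written as quadruples. -/
def matMul (S R : ℤ × ℤ × ℤ × ℤ) : ℤ × ℤ × ℤ × ℤ :=
  (S.1 * R.1 + S.2.1 * R.2.2.1, S.1 * R.2.1 + S.2.1 * R.2.2.2,
   S.2.2.1 * R.1 + S.2.2.2 * R.2.2.1, S.2.2.1 * R.2.1 + S.2.2.2 * R.2.2.2)

theorem place_comp (t u : Cell) (S R : ℤ × ℤ × ℤ × ℤ) (c : Cell) :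
    place t S (place u R c) = place (place t S u) (matMul S R) c := by
  obtain ⟨a, b, c', d⟩ := S
  obtain ⟨e, f, g, h⟩ := R
  obtain ⟨x, y⟩ := c
  obtain ⟨t1, t2⟩ := t
  obtain ⟨u1, u2⟩ := u
  simp only [place, matMul, Prod.mk.injEq]
  constructor <;> ring

theorem matMul_mem {S R : ℤ × ℤ × ℤ × ℤ} (hS : S ∈ signedPerms) (hR : R ∈ signedPerms) :
    matMul S R ∈ signedPerms := by
  simp only [signedPerms, List.mem_cons, List.not_mem_nil, or_false] at hS hR
  rcases hS with rfl | rfl | rfl | rfl | rfl | rfl | rfl | rfl <;>
    rcases hR with rfl | rfl | rfl | rfl | rfl | rfl | rfl | rfl <;> decide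

/-- The image of a copy under a symmetry is a copy. -/
theorem isCopy_image {A : Finset Cell} (hA : IsCopy A) (t : Cell) {S : ℤ × ℤ × ℤ × ℤ}
    (hS : S ∈ signedPerms) : IsCopy (A.image (place t S)) := by
  obtain ⟨u, R, hR, rfl⟩ := hA
  refine ⟨place t S u, matMul S R, matMul_mem hS hR, ?_⟩
  rw [Finset.image_image]
  apply Finset.image_congr
  intro c _
  exact place_comp t u S R c

/-- Invariance of the game under a bijective symmetry. -/
theorem MakerWins.image {M B : Finset Cell} (h : MakerWins M B) (t t' : Cell)
    {S S' : ℤ × ℤ × ℤ × ℤ} (hS : S ∈ signedPerms)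
    (hl : ∀ c, place t' S' (place t S c) = c) (hr : ∀ c, place t S (place t' S' c) = c) :
    MakerWins (M.image (place t S)) (B.image (place t S)) := by
  have hinj : Function.Injective (place t S) := fun a b hab => by
    have := congrArg (place t' S') hab
    rwa [hl, hl] at this
  induction h with
  | won A hA hsub => exact MakerWins.won _ (isCopy_image hA t hS) (Finset.image_subset_image hsub)
  | @move M B m hmM hmB _ ih =>
    refine MakerWins.move (place t S m) ?_ ?_ ?_
    · intro hmem
      obtain ⟨x, hx, hxe⟩ := Finset.mem_image.mp hmem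
      rw [hinj hxe] at hx
      exact hmM hx
    · intro hmem
      obtain ⟨x, hx, hxe⟩ := Finset.mem_image.mp hmem
      rw [hinj hxe] at hx
      exact hmB hx
    · intro b hbm hbM hbB
      have hb : place t S (place t' S' b) = b := hr b
      have := ih (place t' S' b) ?_ ?_ ?_
      · rw [Finset.image_insert, Finset.image_insert, hb] at this
        exact this
      · intro h1
        apply hbm
        rw [← hb, h1]
      · intro h1
        apply hbM
        rw [← hb]
        exact Finset.mem_image_of_mem _ h1
      · intro h1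
        apply hbB
        rw [← hb]
        exact Finset.mem_image_of_mem _ h1

end Vale.Agent.Snaky
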